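import Vale.Agent.P295.Stable

namespace Vale.Agent.Results.P295.Counterexample

open MvPolynomial

/-- `f` is a coordinate of `R_n = ℂ[x_1, ..., x_n]`: there are `f_2, ..., f_n` with
`R_n = ℂ[f, f_2, ..., f_n]`. -/
def IsCoordinate {n : ℕ} (f : MvPolynomial (Fin n) ℂ) : Prop :=
  ∃ g : Fin (n - 1) → MvPolynomial (Fin n) ℂ, Algebra.adjoin ℂ (insert f (Set.range g)) = ⊤

/-- `f` is an `m`-stable coordinate: it is a coordinate of `R_n[w_1, ..., w_m] = R_{n+m}`. -/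
def IsStableCoordinateOf (m : ℕ) {n : ℕ} (f : MvPolynomial (Fin n) ℂ) : Prop :=
  IsCoordinate (rename (Fin.castAdd m) f : MvPolynomial (Fin (n + m)) ℂ)

/-- The quadratic form `Q = x_2 ^ 2 - x_4 ^ 2 + x_1 x_3`. -/
noncomputable def quadQ : MvPolynomial (Fin 4) ℂ := X 1 ^ 2 - X 3 ^ 2 + X 0 * X 2

/-- The polynomial `f = x_1 + 2 Q (Q (x_2 + x_4) - x_1 x_4)` of degree five. -/
noncomputable def polyF : MvPolynomial (Fin 4) ℂ :=
  X 0 + 2 * quadQ * (quadQ * (X 1 + X 3) - X 0 * X 3)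

theorem result :
    (¬ ∀ n : ℕ, 1 ≤ n → ∀ f : MvPolynomial (Fin n) ℂ,
        (∃ m : ℕ, 1 ≤ m ∧ IsStableCoordinateOf m f) → IsCoordinate f) ∧
    IsStableCoordinateOf 1 polyF ∧
    ¬ IsCoordinate polyF ∧
    (∃ e : AlgEquiv ℂ (MvPolynomial (Fin 5) ℂ) (MvPolynomial (Fin 5) ℂ),
      e (rename Fin.castSucc polyF) = X 0) ∧
    (∀ e : AlgEquiv ℂ (MvPolynomial (Fin 4) ℂ) (MvPolynomial (Fin 4) ℂ), e polyF ≠ X 0) ∧
    (∀ c : ℂ, Nonempty (AlgEquiv ℂ (MvPolynomial (Fin 4) ℂ ⧸ Ideal.span {polyF - C c})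
      (MvPolynomial (Fin 3) ℂ))) := by
  have hf : polyF = Vale.Agent.P295.pA := by
    simp only [polyF, quadQ, Vale.Agent.P295.pA, Vale.Agent.P295.xA, Vale.Agent.P295.JA]
    ring
  obtain ⟨g, hg0, hg⟩ := Vale.Agent.P295.pA_stable_adjoin
  have h1 : IsStableCoordinateOf 1 polyF := by
    refine ⟨fun i : Fin 4 => g i.succ, ?_⟩
    have : (rename (Fin.castAdd 1) polyF : MvPolynomial (Fin 5) ℂ) = g 0 := by
      rw [hg0, hf]; rfl
    rw [this, ← hg]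
    congr 1
    exact (Fin.range_fin_succ g).symm
  have h2 : ¬ IsCoordinate polyF := by
    rintro ⟨g', hg'⟩
    obtain ⟨e, he⟩ := Vale.Agent.P295.exists_equiv_of_adjoin
      (Fin.cons polyF (g' : Fin 3 → _) : Fin 4 → MvPolynomial (Fin 4) ℂ)
      (by rw [Fin.range_cons]; exact hg')
    exact Vale.Agent.P295.pA_not_coord e (by rw [← hf]; exact he 0)
  refine ⟨fun h => h2 (h 4 (by norm_num) polyF ⟨1, le_rfl, h1⟩), h1, h2, ?_, ?_, ?_⟩
  · obtain ⟨e, he⟩ := Vale.Agent.P295.exists_equiv_of_adjoin g hg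
    exact ⟨e, by rw [hf, ← hg0]; exact he 0⟩
  · rw [hf]; exact Vale.Agent.P295.pA_not_coord
  · rw [hf]; exact Vale.Agent.P295.pA_fibre

end Vale.Agent.Results.P295.Counterexample
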